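import Mathlib

/-!
# P045: Ryser's inequality for hypergraphs of small maximum degree
-/

namespace Vale.Agent.Results.P045.BoundedDegree

open Finset

variable {V : Type} [DecidableEq V]

/-- `T` meets every edge of `H` -/
def IsCover (H : Finset (Finset V)) (T : Finset V) : Prop := ∀ e ∈ H, ∃ v ∈ T, v ∈ e

/-- `M` is a set of pairwise disjoint edges of `H` -/
def IsMatching (H M : Finset (Finset V)) : Prop :=
  M ⊆ H ∧ ∀ e ∈ M, ∀ f ∈ M, e ≠ f → Disjoint e f

/-- covering number -/
noncomputable def tau (H : Finset (Finset V)) : ℕ :=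
  sInf {k | ∃ T : Finset V, IsCover H T ∧ T.card = k}

/-- matching number -/
noncomputable def nu (H : Finset (Finset V)) : ℕ :=
  sSup {k | ∃ M : Finset (Finset V), IsMatching H M ∧ M.card = k}

/-- number of edges containing `v` -/
def deg (H : Finset (Finset V)) (v : V) : ℕ := (H.filter fun e => v ∈ e).card

theorem nu_bdd (H : Finset (Finset V)) :
    BddAbove {k | ∃ M : Finset (Finset V), IsMatching H M ∧ M.card = k} :=
  ⟨H.card, by rintro k ⟨M, hM, rfl⟩; exact card_le_card hM.1⟩

theorem le_nu {H M : Finset (Finset V)} (hM : IsMatching H M) : M.card ≤ nu H :=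
  le_csSup (nu_bdd H) ⟨M, hM, rfl⟩

theorem tau_le {H : Finset (Finset V)} {T : Finset V} (hT : IsCover H T) : tau H ≤ T.card :=
  Nat.sInf_le ⟨T, hT, rfl⟩

theorem deg_mono {E H : Finset (Finset V)} (h : E ⊆ H) (v : V) : deg E v ≤ deg H v :=
  card_le_card (filter_subset_filter _ h)

/-- greedy matching -/
theorem greedy_matching (r k : ℕ) (n : ℕ) : ∀ E : Finset (Finset V), E.card = n →
    (∀ e ∈ E, e.card ≤ r) → (∀ v, deg E v ≤ k + 1) →
    ∃ M, IsMatching E M ∧ E.card ≤ (r * k + 1) * M.card := by
  induction n using Nat.strong_induction_on with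
  | _ n ih =>
    intro E hn hr hk
    rcases E.eq_empty_or_nonempty with h | ⟨e, he⟩
    · exact ⟨∅, ⟨empty_subset _, by simp⟩, by simp [h]⟩
    · by_cases hemp : e = ∅
      · -- an empty edge is disjoint from everything
        obtain ⟨M, hM, hc⟩ := ih (E.erase e).card
          (by rw [← hn]; exact card_lt_card (erase_ssubset he)) (E.erase e) rfl
          (fun f hf => hr f (mem_of_mem_erase hf))
          (fun v => (deg_mono (erase_subset _ _) v).trans (hk v))
        have heM : e ∉ M := fun h => (notMem_erase e E) (hM.1 h)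
        refine ⟨insert e M, ⟨?_, ?_⟩, ?_⟩
        · exact insert_subset he (hM.1.trans (erase_subset _ _))
        · intro f hf g hg hfg
          rcases mem_insert.1 hf with rfl | hf
          · rw [hemp]; exact disjoint_empty_left _
          · rcases mem_insert.1 hg with rfl | hg
            · rw [hemp]; exact disjoint_empty_right _
            · exact hM.2 f hf g hg hfg
        · rw [card_insert_of_notMem heM]
          have h1 := card_erase_add_one he
          nlinarith
      · obtain ⟨E', hE'⟩ : ∃ E', E' = E.filter fun f => Disjoint e f := ⟨_, rfl⟩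
        have hsub : E' ⊆ E := by rw [hE']; exact filter_subset _ _
        have he' : e ∉ E' := by
          rw [hE', mem_filter]
          rintro ⟨-, h⟩
          exact hemp (disjoint_self.1 h)
        have hlt : E'.card < n := by
          rw [← hn]
          exact card_lt_card ⟨hsub, fun h => he' (h he)⟩
        obtain ⟨M, hM, hc⟩ := ih E'.card hlt E' rfl (fun f hf => hr f (hsub hf))
          (fun v => (deg_mono hsub v).trans (hk v))
        have heM : e ∉ M := fun h => he' (hM.1 h)
        -- edges meeting `e`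
        have hcount : E.card ≤ E'.card + (r * k + 1) := by
          have h1 : E ⊆ E' ∪ insert e (e.biUnion fun v => (E.filter fun f => v ∈ f).erase e) := by
            intro f hf
            rw [mem_union, mem_insert, mem_biUnion]
            by_cases hd : Disjoint e f
            · left
              rw [hE', mem_filter]
              exact ⟨hf, hd⟩
            · right
              by_cases hfe : f = e
              · exact Or.inl hfe
              · right
                obtain ⟨v, hv1, hv2⟩ := not_disjoint_iff.1 hd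
                exact ⟨v, hv1, mem_erase.2 ⟨hfe, mem_filter.2 ⟨hf, hv2⟩⟩⟩
          have h2 : (e.biUnion fun v => (E.filter fun f => v ∈ f).erase e).card ≤ e.card * k := by
            refine card_biUnion_le_card_mul _ _ _ fun v hv => ?_
            rw [card_erase_of_mem (mem_filter.2 ⟨he, hv⟩)]
            have := hk v
            unfold deg at this
            omega
          have h3 : e.card * k ≤ r * k := Nat.mul_le_mul_right _ (hr e he)
          calc E.card ≤ _ := card_le_card h1
            _ ≤ E'.card + (insert e (e.biUnion fun v => (E.filter fun f => v ∈ f).erase e)).card :=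
              card_union_le _ _
            _ ≤ E'.card + ((e.biUnion fun v => (E.filter fun f => v ∈ f).erase e).card + 1) :=
              Nat.add_le_add_left (card_insert_le _ _) _
            _ ≤ _ := by omega
        refine ⟨insert e M, ⟨insert_subset he (hM.1.trans hsub), ?_⟩, ?_⟩
        · have hdis : ∀ f ∈ M, Disjoint e f := fun f hf => by
            have := hM.1 hf
            rw [hE', mem_filter] at this
            exact this.2
          intro f hf g hg hfg
          rcases mem_insert.1 hf with hfe | hf'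
          · rcases mem_insert.1 hg with hge | hg'
            · exact absurd (hfe.trans hge.symm) hfg
            · rw [hfe]; exact hdis g hg'
          · rcases mem_insert.1 hg with hge | hg'
            · rw [hge]; exact (hdis f hf').symm
            · exact hM.2 f hf' g hg' hfg
        · rw [card_insert_of_notMem heM]
          nlinarith

theorem card_le_nu {r k : ℕ} {E H : Finset (Finset V)} (hEH : E ⊆ H) (hr : ∀ e ∈ H, e.card ≤ r)
    (hk : ∀ v, deg E v ≤ k + 1) : E.card ≤ (r * k + 1) * nu H := by
  obtain ⟨M, hM, hc⟩ := greedy_matching r k E.card E rfl (fun e he => hr e (hEH he)) hk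
  exact hc.trans (Nat.mul_le_mul_left _ (le_nu ⟨hM.1.trans hEH, hM.2⟩))

/-- greedy cover: vertices of degree `k + 1` are taken as long as there are any -/
theorem greedy_cover (k : ℕ) (n : ℕ) : ∀ E : Finset (Finset V), E.card = n →
    ∃ T : Finset V, ∃ E' ⊆ E, (∀ v, deg E' v ≤ k) ∧ (∀ e ∈ E, e ∉ E' → ∃ v ∈ T, v ∈ e) ∧
      (k + 1) * T.card + E'.card ≤ E.card := by
  induction n using Nat.strong_induction_on with
  | _ n ih =>
    intro E hn
    by_cases h : ∀ v, deg E v ≤ k
    · exact ⟨∅, E, Subset.rfl, h, fun e he he' => absurd he he', by simp⟩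
    · push Not at h
      obtain ⟨v, hv⟩ := h
      obtain ⟨E₁, hE₁⟩ : ∃ E₁, E₁ = E.filter fun e => v ∉ e := ⟨_, rfl⟩
      have hcard : deg E v + E₁.card = E.card := by
        rw [hE₁]
        exact card_filter_add_card_filter_not (s := E) (fun e => v ∈ e)
      obtain ⟨T, E', h1, h2, h3, h4⟩ := ih E₁.card (by omega) E₁ rfl
      refine ⟨insert v T, E', h1.trans (by rw [hE₁]; exact filter_subset _ _), h2, ?_, ?_⟩
      · intro e he he'
        by_cases hve : v ∈ e
        · exact ⟨v, mem_insert_self _ _, hve⟩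
        · obtain ⟨w, hw, hwe⟩ := h3 e (by rw [hE₁, mem_filter]; exact ⟨he, hve⟩) he'
          exact ⟨w, mem_insert_of_mem hw, hwe⟩
      · have := card_insert_le v T
        have h5 : (k + 1) * (insert v T).card ≤ (k + 1) * (T.card + 1) :=
          Nat.mul_le_mul_left _ this
        nlinarith

/-- one vertex per edge -/
theorem cover_edges (E : Finset (Finset V)) (hne : ∀ e ∈ E, e.Nonempty) :
    ∃ T : Finset V, IsCover E T ∧ T.card ≤ E.card := by
  classical
  refine ⟨E.attach.image fun e => (hne e.1 e.2).choose, ?_, ?_⟩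
  · intro e he
    exact ⟨(hne e he).choose, mem_image.2 ⟨⟨e, he⟩, mem_attach _ _, rfl⟩, (hne e he).choose_spec⟩
  · exact card_image_le.trans (by simp)

theorem two {r : ℕ} {H : Finset (Finset V)} (hne : ∀ e ∈ H, e.Nonempty)
    (hr : ∀ e ∈ H, e.card ≤ r) (hd : ∀ v, deg H v ≤ 2) : 2 * tau H ≤ (r + 2) * nu H := by
  obtain ⟨T, E, h1, h2, h3, h4⟩ := greedy_cover 1 H.card H rfl
  obtain ⟨S, hS, hS2⟩ := cover_edges E fun e he => hne e (h1 he)
  have hcov : IsCover H (T ∪ S) := by
    intro e he
    by_cases hE : e ∈ E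
    · obtain ⟨v, hv, hve⟩ := hS e hE
      exact ⟨v, mem_union_right _ hv, hve⟩
    · obtain ⟨v, hv, hve⟩ := h3 e he hE
      exact ⟨v, mem_union_left _ hv, hve⟩
  have h5 := (tau_le hcov).trans (card_union_le T S)
  have h6 := card_le_nu (k := 1) Subset.rfl hr hd
  have h7 := card_le_nu (k := 0) h1 hr h2
  nlinarith

theorem three {r : ℕ} {H : Finset (Finset V)} (hne : ∀ e ∈ H, e.Nonempty)
    (hr : ∀ e ∈ H, e.card ≤ r) (hd : ∀ v, deg H v ≤ 3) : 6 * tau H ≤ (5 * r + 6) * nu H := by
  obtain ⟨T, E, h1, h2, h3, h4⟩ := greedy_cover 2 H.card H rfl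
  obtain ⟨T', E', g1, g2, g3, g4⟩ := greedy_cover 1 E.card E rfl
  obtain ⟨S, hS, hS2⟩ := cover_edges E' fun e he => hne e (h1 (g1 he))
  have hcov : IsCover H (T ∪ (T' ∪ S)) := by
    intro e he
    by_cases hE : e ∈ E
    · by_cases hE' : e ∈ E'
      · obtain ⟨v, hv, hve⟩ := hS e hE'
        exact ⟨v, mem_union_right _ (mem_union_right _ hv), hve⟩
      · obtain ⟨v, hv, hve⟩ := g3 e hE hE'
        exact ⟨v, mem_union_right _ (mem_union_left _ hv), hve⟩
    · obtain ⟨v, hv, hve⟩ := h3 e he hE
      exact ⟨v, mem_union_left _ hv, hve⟩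
  have h5 := (tau_le hcov).trans (card_union_le T (T' ∪ S))
  have h5' := card_union_le T' S
  have h6 := card_le_nu (k := 2) Subset.rfl hr hd
  have h7 := card_le_nu (k := 1) h1 hr h2
  have h8 := card_le_nu (k := 0) (g1.trans h1) hr g2
  nlinarith

/-- Ryser's inequality `τ ≤ (r - 1) ν` for `r`-uniform hypergraphs of maximum degree at most `2`
(`r ≥ 4`) and at most `3` (`r ≥ 12`); `r`-partiteness is not needed. -/
theorem result : ∀ (V : Type) [DecidableEq V] (r : ℕ) (H : Finset (Finset V)),
    1 ≤ r → (∀ e ∈ H, e.card = r) →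
    ((∀ v, deg H v ≤ 2) → 2 * tau H ≤ (r + 2) * nu H) ∧
    ((∀ v, deg H v ≤ 3) → 6 * tau H ≤ (5 * r + 6) * nu H) ∧
    ((((∀ v, deg H v ≤ 2) ∧ 4 ≤ r) ∨ ((∀ v, deg H v ≤ 3) ∧ 12 ≤ r)) →
      tau H ≤ (r - 1) * nu H) := by
  intro V _ r H hr1 hr
  have hr' : ∀ e ∈ H, e.card ≤ r := fun e he => (hr e he).le
  have hne : ∀ e ∈ H, e.Nonempty := fun e he => card_pos.1 (by rw [hr e he]; omega)
  refine ⟨two hne hr', three hne hr', fun h => ?_⟩
  rcases h with ⟨hd, h4⟩ | ⟨hd, h12⟩
  · have h1 := two hne hr' hd
    obtain ⟨s, rfl⟩ : ∃ s, r = s + 4 := ⟨r - 4, by omega⟩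
    have e : s + 4 - 1 = s + 3 := by omega
    rw [e]
    nlinarith [Nat.zero_le (s * nu H)]
  · have h1 := three hne hr' hd
    obtain ⟨s, rfl⟩ : ∃ s, r = s + 12 := ⟨r - 12, by omega⟩
    have e : s + 12 - 1 = s + 11 := by omega
    rw [e]
    nlinarith [Nat.zero_le (s * nu H)]

end Vale.Agent.Results.P045.BoundedDegree
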